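import Vale.Agent.P333.Y.Defs
import Vale.Agent.P333.G.Cov

set_option linter.all false

/-!
P333, ratio `2`, part M0: the selection ends with all big circles contracted or left.
-/

namespace Vale.Agent.P333.H950

open Vale.Agent.P333 Vale.Agent.P333.U Vale.Agent.P333.E Vale.Agent.P333.G Vale.Agent.P333.Y
  Vale.Agent.Lib.PolyTime

/-! ### Largest and smallest values -/

theorem foldl_max_mem {α : Type} (f : α → ℕ) (l : List α) (d : α) :
    l.foldl (fun b x => if f b < f x then x else b) d = d ∨
      l.foldl (fun b x => if f b < f x then x else b) d ∈ l := by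
  induction l generalizing d with
  | nil => exact Or.inl rfl
  | cons x l ih =>
    rw [List.foldl_cons]
    split_ifs
    · rcases ih x with h | h
      · rw [h]; exact Or.inr List.mem_cons_self
      · exact Or.inr (List.mem_cons_of_mem _ h)
    · rcases ih d with h | h
      · exact Or.inl h
      · exact Or.inr (List.mem_cons_of_mem _ h)

theorem foldl_min_mem {α : Type} (f : α → ℕ) (l : List α) (d : α) :
    l.foldl (fun b x => if f x < f b then x else b) d = d ∨
      l.foldl (fun b x => if f x < f b then x else b) d ∈ l := by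
  induction l generalizing d with
  | nil => exact Or.inl rfl
  | cons x l ih =>
    rw [List.foldl_cons]
    split_ifs
    · rcases ih x with h | h
      · rw [h]; exact Or.inr List.mem_cons_self
      · exact Or.inr (List.mem_cons_of_mem _ h)
    · rcases ih d with h | h
      · exact Or.inl h
      · exact Or.inr (List.mem_cons_of_mem _ h)

theorem amax_mem {α : Type} (f : α → ℕ) (d : α) {l : List α} (hl : l ≠ []) :
    amax f d l ∈ l := by
  obtain ⟨x, r, rfl⟩ := List.exists_cons_of_ne_nil hl
  unfold amax
  show (x :: r).foldl (fun b x => if f b < f x then x else b) x ∈ x :: r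
  rcases foldl_max_mem f (x :: r) x with h | h
  · rw [h]; exact List.mem_cons_self
  · exact h

theorem amin_mem {α : Type} (f : α → ℕ) (d : α) {l : List α} (hl : l ≠ []) :
    amin f d l ∈ l := by
  obtain ⟨x, r, rfl⟩ := List.exists_cons_of_ne_nil hl
  unfold amin
  show (x :: r).foldl (fun b x => if f x < f b then x else b) x ∈ x :: r
  rcases foldl_min_mem f (x :: r) x with h | h
  · rw [h]; exact List.mem_cons_self
  · exact h

theorem foldl_min_le {α : Type} (f : α → ℕ) (l : List α) (d : α) :
    f (l.foldl (fun b x => if f x < f b then x else b) d) ≤ f d ∧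
      ∀ x ∈ l, f (l.foldl (fun b x => if f x < f b then x else b) d) ≤ f x := by
  induction l generalizing d with
  | nil => exact ⟨le_refl _, fun x hx => absurd hx List.not_mem_nil⟩
  | cons x l ih =>
    rw [List.foldl_cons]
    obtain ⟨h1, h2⟩ := ih (if f x < f d then x else d)
    constructor
    · refine le_trans h1 ?_
      split_ifs with h
      · exact h.le
      · exact le_refl _
    · intro y hy
      rcases List.mem_cons.1 hy with rfl | hy
      · refine le_trans h1 ?_
        split_ifs with h
        · exact le_refl _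
        · omega
      · exact h2 y hy

theorem foldl_max_le {α : Type} (f : α → ℕ) (l : List α) (d : α) :
    f d ≤ f (l.foldl (fun b x => if f b < f x then x else b) d) ∧
      ∀ x ∈ l, f x ≤ f (l.foldl (fun b x => if f b < f x then x else b) d) := by
  induction l generalizing d with
  | nil => exact ⟨le_refl _, fun x hx => absurd hx List.not_mem_nil⟩
  | cons x l ih =>
    rw [List.foldl_cons]
    obtain ⟨h1, h2⟩ := ih (if f d < f x then x else d)
    constructor
    · refine le_trans ?_ h1
      split_ifs with h
      · exact h.le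
      · exact le_refl _
    · intro y hy
      rcases List.mem_cons.1 hy with rfl | hy
      · refine le_trans ?_ h1
        split_ifs with h
        · exact le_refl _
        · omega
      · exact h2 y hy

theorem amin_le {α : Type} (f : α → ℕ) (d : α) (l : List α) : ∀ x ∈ l, f (amin f d l) ≤ f x :=
  (foldl_min_le f l _).2

theorem le_amax {α : Type} (f : α → ℕ) (d : α) (l : List α) : ∀ x ∈ l, f x ≤ f (amax f d l) :=
  (foldl_max_le f l _).2

/-! ### Bounds -/

theorem linW_add_last_le (c : List (List ℕ)) :
    linW c + (c.getLastD []).length ≤ c.flatten.length := by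
  induction c with
  | nil => simp [linW]
  | cons s r ih =>
    cases r with
    | nil => simp [linW]
    | cons t r =>
      have e1 : ((s :: t :: r).getLastD []) = ((t :: r).getLastD []) := by
        simp only [List.getLastD_eq_getLast?, List.getLast?_cons_cons]
      rw [e1, spec_linW, List.flatten_cons, List.length_append]
      omega

theorem cycW_le_flatten (c : List (List ℕ)) : cycW c ≤ c.flatten.length := by
  have := linW_add_last_le c
  unfold cycW
  omega

variable {S : List (List ℕ)} {L F : List Cir}

theorem flatten_le_of_mem (hL : L.flatten.Perm S) {c : Cir} (hc : c ∈ L) :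
    c.flatten.length ≤ S.flatten.length := by
  rw [← (hL.flatten).length_eq]
  have h1 : c.Sublist L.flatten := List.sublist_flatten_of_mem hc
  exact (h1.flatten).length_le

theorem length_lt_bnd {s : List ℕ} (hs : s ∈ S) : s.length < bnd S := by
  have := (List.sublist_flatten_of_mem hs).length_le
  unfold bnd
  omega

/-- The strings of a class are strings of `L`. -/
theorem mem_of_nodes {n : Cir} (hn : n ∈ nodes L F) {s : List ℕ} (hs : s ∈ n) :
    s ∈ L.flatten := by
  unfold nodes at hn
  obtain ⟨c, hc, hn⟩ := List.mem_flatMap.1 hn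
  split_ifs at hn with h
  · rw [List.mem_singleton] at hn
    subst hn
    exact List.mem_flatten.2 ⟨_, hc, hs⟩
  · obtain ⟨t, ht, rfl⟩ := List.mem_map.1 hn
    rw [List.mem_singleton] at hs
    subst hs
    exact List.mem_flatten.2 ⟨_, hc, ht⟩

theorem fst_mem_exs {n : Cir} {p : List ℕ × ℕ} (hp : p ∈ exs F n) : p.1 ∈ n := by
  unfold exs at hp
  split_ifs at hp with h
  · obtain ⟨e, he, rfl⟩ := List.mem_map.1 hp
    rw [← cprs_fst [] n]
    exact List.mem_map_of_mem he
  · obtain ⟨s, hs, rfl⟩ := List.mem_map.1 hp
    exact hs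

theorem fst_mem_ens {n : Cir} {p : List ℕ × ℕ} (hp : p ∈ ens F n) : p.1 ∈ n := by
  unfold ens at hp
  split_ifs at hp with h
  · obtain ⟨e, he, rfl⟩ := List.mem_map.1 hp
    exact (cprs_snd [] n).mem_iff.1 (List.mem_map_of_mem he)
  · obtain ⟨s, hs, rfl⟩ := List.mem_map.1 hp
    exact hs

/-- The strings of the chosen arc. -/
theorem pk_mem {B : ℕ} {n m : Cir} (hn : n ≠ []) (hm : m ≠ []) :
    (pk B F n m).1 ∈ exs F n ∧ (pk B F n m).2 ∈ ens F m ∨
      n ∈ F ∧ n = m ∧ pk B F n m = ((n.getLastD [], cycO n), (n.headD [], cycO n)) := by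
  unfold pk
  split_ifs with h
  · simp only [Bool.and_eq_true, decide_eq_true_eq] at h
    exact Or.inr ⟨h.1, h.2, rfl⟩
  · left
    have hne : ((exs F n).flatMap (fun p => (ens F m).map (fun q => (p, q)))) ≠ [] := by
      have h1 : exs F n ≠ [] := by
        unfold exs
        split_ifs
        · intro h0
          have := congrArg (List.map Prod.fst) h0
          rw [List.map_map] at this
          have h2 : (Prod.fst ∘ fun e : List ℕ × List ℕ => (e.1, ov e.1 e.2)) = Prod.fst := rfl
          rw [h2, cprs_fst] at this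
          exact hn this
        · simpa using hn
      have h2 : ens F m ≠ [] := by
        unfold ens
        split_ifs
        · intro h0
          have h3 : cprs [] m = [] := List.map_eq_nil_iff.1 h0
          have := cprs_fst [] m
          rw [h3] at this
          exact hm this.symm
        · simpa using hm
      obtain ⟨p, r, hp⟩ := List.exists_cons_of_ne_nil h1
      obtain ⟨q, r', hq⟩ := List.exists_cons_of_ne_nil h2
      intro h0
      have : (p, q) ∈ ((exs F n).flatMap (fun p => (ens F m).map (fun q => (p, q)))) :=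
        List.mem_flatMap.2 ⟨p, by rw [hp]; simp, List.mem_map.2 ⟨q, by rw [hq]; simp, rfl⟩⟩
      rw [h0] at this
      exact List.not_mem_nil this
    have := amax_mem (fun p : (List ℕ × ℕ) × (List ℕ × ℕ) => gv B p.1 p.2) (([], 0), ([], 0)) hne
    obtain ⟨p, hp, hq⟩ := List.mem_flatMap.1 this
    obtain ⟨q, hq, he⟩ := List.mem_map.1 hq
    rw [← he]
    exact ⟨hp, hq⟩

/-- Classes are not empty. -/
theorem nodes_ne (hne : ∀ c ∈ L, c ≠ []) {n : Cir} (hn : n ∈ nodes L F) : n ≠ [] := by
  unfold nodes at hn
  obtain ⟨c, hc, hn⟩ := List.mem_flatMap.1 hn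
  split_ifs at hn with h
  · rw [List.mem_singleton] at hn
    subst hn
    exact hne _ hc
  · obtain ⟨t, ht, rfl⟩ := List.mem_map.1 hn
    simp

theorem gn_le (hL : L.flatten.Perm S) (hne : ∀ c ∈ L, c ≠ []) (hF : ∀ c ∈ F, c ∈ L)
    {n m : Cir} (hn : n ∈ nodes L F) (hm : m ∈ nodes L F) :
    gn (bnd S) F n m ≤ 4 * bnd S := by
  unfold gn
  split_ifs with h
  · simp only [Bool.and_eq_true, decide_eq_true_eq] at h
    have h1 := cycW_le_flatten n
    have h2 := flatten_le_of_mem hL (hF n h.1)
    unfold bnd
    omega
  · rcases pk_mem (B := bnd S) (F := F) (nodes_ne hne hn) (nodes_ne hne hm) with ⟨h1, h2⟩ | ⟨h1, h2, h3⟩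
    · have h3 := ov_le_left (pk (bnd S) F n m).1.1 (pk (bnd S) F n m).2.1
      have h4 := length_lt_bnd (hL.mem_iff.1 (mem_of_nodes hn (fst_mem_exs h1)))
      unfold gv
      omega
    · subst h2
      simp [h1] at h

theorem length_gmat (B : ℕ) (F N : List Cir) : (gmat B F N).length = N.length := by
  simp [gmat]

theorem sqMat_gmat (hL : L.flatten.Perm S) (hne : ∀ c ∈ L, c ≠ []) (hF : ∀ c ∈ F, c ∈ L) :
    SqMat (gmat (bnd S) F (nodes L F)) (4 * bnd S) := by
  refine ⟨fun row hrow => ?_, fun row hrow x hx => ?_⟩
  · simp only [gmat, List.mem_map] at hrow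
    obtain ⟨s, -, rfl⟩ := hrow
    simp [gmat]
  · simp only [gmat, List.mem_map] at hrow
    obtain ⟨n, hn, rfl⟩ := hrow
    simp only [List.mem_map] at hx
    obtain ⟨m, hm, rfl⟩ := hx
    exact gn_le hL hne hF hn hm

/-- The optimal assignment. -/
theorem asgF_spec {asg : List Unit × List (List ℕ) → List ℕ} (ha : AsgOk asg)
    (hL : L.flatten.Perm S) (hne : ∀ c ∈ L, c ≠ []) (hF : ∀ c ∈ F, c ∈ L) :
    (asgF asg (bnd S) F (nodes L F)).Perm (List.range (nodes L F).length) ∧
      ∀ P, P.Perm (List.range (nodes L F).length) →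
        asgVal (gmat (bnd S) F (nodes L F)) P ≤
          asgVal (gmat (bnd S) F (nodes L F)) (asgF asg (bnd S) F (nodes L F)) := by
  have h := ha (List.replicate (4 * bnd S) ()) (gmat (bnd S) F (nodes L F)) (by
    rw [List.length_replicate]; exact sqMat_gmat hL hne hF)
  rw [length_gmat] at h
  exact h

/-! ### The selection -/

theorem mem_zs {asg : List Unit × List (List ℕ) → List ℕ} {B : ℕ} {k : ℕ} :
    k ∈ zs asg B L F ↔ k < L.length ∧ big (L.getD k []) = true ∧ L.getD k [] ∉ F ∧
      lv (nodes L F) (asgF asg B F (nodes L F)) (L.getD k []) = 0 := by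
  unfold zs
  rw [List.mem_filter, List.mem_range]
  simp only [Bool.and_eq_true, decide_eq_true_eq, Bool.not_eq_true', decide_eq_false_iff_not,
    and_assoc]

/-- The sets after `j` steps. -/
theorem sel_inv (asg : List Unit × List (List ℕ) → List ℕ) (B : ℕ) (L : List Cir) (s0 : Sel)
    (h0 : s0.1 = []) (j : ℕ) : FOk L ((selStep asg B L)^[j] s0).1 ∧
      (zs asg B L ((selStep asg B L)^[j] s0).1 = [] ∨ ((selStep asg B L)^[j] s0).1.length = j) := by
  induction j with
  | zero =>
    rw [Function.iterate_zero_apply, h0]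
    refine ⟨⟨List.nodup_nil, fun c hc => absurd hc List.not_mem_nil,
      fun c hc => absurd hc List.not_mem_nil⟩, Or.inr rfl⟩
  | succ j ih =>
    rw [Function.iterate_succ_apply']
    set s := (selStep asg B L)^[j] s0
    obtain ⟨h1, h2⟩ := ih
    by_cases hz : zs asg B L s.1 = []
    · have : selStep asg B L s = s := by
        unfold selStep
        rw [hz]
        rfl
      rw [this]
      exact ⟨h1, Or.inl hz⟩
    · have hk := amin_mem (fun j => s.2.1.getD j 0) 0 hz
      set k := amin (fun j => s.2.1.getD j 0) 0 (zs asg B L s.1)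
      have hs : (selStep asg B L s).1 = L.getD k [] :: s.1 := by
        unfold selStep
        rw [if_neg (by simpa using hz)]
        rfl
      rw [hs]
      obtain ⟨hk1, hk2, hk3, -⟩ := mem_zs.1 hk
      refine ⟨⟨List.nodup_cons.2 ⟨hk3, h1.nodup⟩, ?_, ?_⟩, Or.inr ?_⟩
      · intro c hc
        rcases List.mem_cons.1 hc with rfl | hc
        · rw [List.getD_eq_getElem _ _ hk1]
          exact List.getElem_mem _
        · exact h1.sub c hc
      · intro c hc
        rcases List.mem_cons.1 hc with rfl | hc
        · exact hk2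
        · exact h1.big c hc
      · rw [List.length_cons]
        rcases h2 with h2 | h2
        · exact absurd h2 hz
        · rw [h2]

theorem sel_end (asg : List Unit × List (List ℕ) → List ℕ) (B : ℕ) (L : List Cir) (s0 : Sel)
    (h0 : s0.1 = []) : zs asg B L ((selStep asg B L)^[L.length] s0).1 = [] := by
  obtain ⟨h1, h2⟩ := sel_inv asg B L s0 h0 L.length
  rcases h2 with h2 | h2
  · exact h2
  · set F := ((selStep asg B L)^[L.length] s0).1
    rw [List.eq_nil_iff_forall_not_mem]
    intro k hk
    obtain ⟨hk1, -, hk3, -⟩ := mem_zs.1 hk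
    apply hk3
    have h3 : F.toFinset ⊆ L.toFinset := by
      intro c hc
      rw [List.mem_toFinset] at hc ⊢
      exact h1.sub c hc
    have h4 : F.toFinset = L.toFinset := by
      apply Finset.eq_of_subset_of_card_le h3
      rw [List.toFinset_card_of_nodup h1.nodup, h2]
      exact List.toFinset_card_le L
    have h5 : L.getD k [] ∈ L.toFinset := by
      rw [List.mem_toFinset, List.getD_eq_getElem _ _ hk1]
      exact List.getElem_mem _
    rw [← h4, List.mem_toFinset] at h5
    exact h5

theorem selF_FOk (asg : List Unit × List (List ℕ) → List ℕ) (B : ℕ) (L : List Cir) :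
    FOk L (selF asg B L) :=
  (sel_inv asg B L ([], sub asg B L, parT B) rfl L.length).1

/-- M0. -/
theorem partM0 : PartM0 := by
  intro asg ha S L hS hL
  have hF := selF_FOk asg (bnd S) L
  refine ⟨hF, (asgF_spec ha hL.perm hL.ne hF.sub).1, ?_⟩
  have hz : zs asg (bnd S) L (selF asg (bnd S) L) = [] :=
    sel_end asg (bnd S) L ([], sub asg (bnd S) L, parT (bnd S)) rfl
  intro c hc hb hcF
  by_contra h
  obtain ⟨k, hk, rfl⟩ := List.getElem_of_mem hc
  have hk' : k ∈ zs asg (bnd S) L (selF asg (bnd S) L) := by
    rw [mem_zs, List.getD_eq_getElem _ _ hk]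
    exact ⟨hk, hb, hcF, Nat.eq_zero_of_not_pos h⟩
  rw [hz] at hk'
  exact List.not_mem_nil hk'

end Vale.Agent.P333.H950
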