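import Vale.Agent.P333.X.PTd

set_option linter.all false

/-!
P333, ratio `2`: generic list functions (largest key, smallest key, shortest window) and their
polynomial time.
-/

namespace Vale.Agent.P333.H950

open Vale.Agent.P333 Vale.Agent.P333.U Vale.Agent.P333.E Vale.Agent.P333.G Vale.Agent.P333.X
  Vale.Agent.Lib.PolyTime

variable {A : Set Word} {α β γ δ : Type*} [Enc α] [Enc β] [Enc γ] [Enc δ]

/-! ### Largest key -/

/-- The first element of `d :: l` with the largest key. -/
def argmaxD {γ : Type*} (key : γ → ℕ) (d : γ) (l : List γ) : γ :=
  l.foldl (fun b x => if key b < key x then x else b) d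

/-- The first element of `d :: l` with the smallest key. -/
def argminD {γ : Type*} (key : γ → ℕ) (d : γ) (l : List γ) : γ :=
  l.foldl (fun b x => if key x < key b then x else b) d

theorem argmaxD_mem {γ : Type*} (key : γ → ℕ) (d : γ) (l : List γ) :
    argmaxD key d l = d ∨ argmaxD key d l ∈ l := by
  induction l generalizing d with
  | nil => exact Or.inl rfl
  | cons x l ih =>
    have : argmaxD key d (x :: l) = argmaxD key (if key d < key x then x else d) l := rfl
    rw [this]
    split_ifs
    · rcases ih x with h | h
      · rw [h]; exact Or.inr List.mem_cons_self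
      · exact Or.inr (List.mem_cons_of_mem _ h)
    · rcases ih d with h | h
      · exact Or.inl h
      · exact Or.inr (List.mem_cons_of_mem _ h)

theorem le_argmaxD {γ : Type*} (key : γ → ℕ) (d : γ) (l : List γ) :
    key d ≤ key (argmaxD key d l) ∧ ∀ x ∈ l, key x ≤ key (argmaxD key d l) := by
  induction l generalizing d with
  | nil => exact ⟨le_refl _, fun x hx => absurd hx List.not_mem_nil⟩
  | cons x l ih =>
    have e : argmaxD key d (x :: l) = argmaxD key (if key d < key x then x else d) l := rfl
    rw [e]
    obtain ⟨h1, h2⟩ := ih (if key d < key x then x else d)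
    constructor
    · refine le_trans ?_ h1
      split_ifs with h
      · exact h.le
      · exact le_refl _
    · intro y hy
      rcases List.mem_cons.1 hy with rfl | hy
      · refine le_trans ?_ h1
        split_ifs with h
        · exact le_refl _
        · omega
      · exact h2 y hy

theorem argminD_mem {γ : Type*} (key : γ → ℕ) (d : γ) (l : List γ) :
    argminD key d l = d ∨ argminD key d l ∈ l := by
  induction l generalizing d with
  | nil => exact Or.inl rfl
  | cons x l ih =>
    have : argminD key d (x :: l) = argminD key (if key x < key d then x else d) l := rfl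
    rw [this]
    split_ifs
    · rcases ih x with h | h
      · rw [h]; exact Or.inr List.mem_cons_self
      · exact Or.inr (List.mem_cons_of_mem _ h)
    · rcases ih d with h | h
      · exact Or.inl h
      · exact Or.inr (List.mem_cons_of_mem _ h)

theorem argminD_le {γ : Type*} (key : γ → ℕ) (d : γ) (l : List γ) :
    key (argminD key d l) ≤ key d ∧ ∀ x ∈ l, key (argminD key d l) ≤ key x := by
  induction l generalizing d with
  | nil => exact ⟨le_refl _, fun x hx => absurd hx List.not_mem_nil⟩
  | cons x l ih =>
    have e : argminD key d (x :: l) = argminD key (if key x < key d then x else d) l := rfl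
    rw [e]
    obtain ⟨h1, h2⟩ := ih (if key x < key d then x else d)
    constructor
    · refine le_trans h1 ?_
      split_ifs with h
      · exact h.le
      · exact le_refl _
    · intro y hy
      rcases List.mem_cons.1 hy with rfl | hy
      · refine le_trans h1 ?_
        split_ifs with h
        · exact le_refl _
        · omega
      · exact h2 y hy

theorem PT_argmaxD {key : α → γ → ℕ} {d : α → γ} {l : α → List γ}
    (hk : PT A (fun p : α × γ => key p.1 p.2)) (hd : PT A d) (hl : PT A l) :
    PT A (fun a => argmaxD (key a) (d a) (l a)) := by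
  unfold argmaxD
  refine PT.foldl (f := fun a b x => if key a b < key a x then x else b) hl hd ?_
    (b := fun a => esize (d a) + esize (l a)) (hd.pbd.add hl.pbd) fun a j => ?_
  · exact PT.ite (p := fun p : α × γ × γ => key p.1 p.2.1 < key p.1 p.2.2)
      (PT.lt (hk.comp (PT.fst'.pair PT.snd'.fst)) (hk.comp (PT.fst'.pair PT.snd'.snd)))
      PT.snd'.snd PT.snd'.fst
  · rcases argmaxD_mem (key a) (d a) ((l a).take j) with h | h
    · have h' : ((l a).take j).foldl (fun b x => if key a b < key a x then x else b) (d a) = d a := h
      rw [h']
      omega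
    · have h' := esize_le_of_mem (List.mem_of_mem_take h)
      have : esize (((l a).take j).foldl (fun b x => if key a b < key a x then x else b) (d a)) ≤
        esize (l a) := h'
      omega

theorem PT_argminD {key : α → γ → ℕ} {d : α → γ} {l : α → List γ}
    (hk : PT A (fun p : α × γ => key p.1 p.2)) (hd : PT A d) (hl : PT A l) :
    PT A (fun a => argminD (key a) (d a) (l a)) := by
  unfold argminD
  refine PT.foldl (f := fun a b x => if key a x < key a b then x else b) hl hd ?_
    (b := fun a => esize (d a) + esize (l a)) (hd.pbd.add hl.pbd) fun a j => ?_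
  · exact PT.ite (p := fun p : α × γ × γ => key p.1 p.2.2 < key p.1 p.2.1)
      (PT.lt (hk.comp (PT.fst'.pair PT.snd'.snd)) (hk.comp (PT.fst'.pair PT.snd'.fst)))
      PT.snd'.snd PT.snd'.fst
  · rcases argminD_mem (key a) (d a) ((l a).take j) with h | h
    · have h' : ((l a).take j).foldl (fun b x => if key a x < key a b then x else b) (d a) = d a := h
      rw [h']
      omega
    · have h' := esize_le_of_mem (List.mem_of_mem_take h)
      have : esize (((l a).take j).foldl (fun b x => if key a x < key a b then x else b) (d a)) ≤
        esize (l a) := h'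
      omega

/-! ### Products -/

/-- All pairs. -/
def prodL {γ δ : Type*} (l : List γ) (m : List δ) : List (γ × δ) :=
  l.flatMap (fun x => m.map (fun y => (x, y)))

theorem mem_prodL {γ δ : Type*} {l : List γ} {m : List δ} {p : γ × δ} :
    p ∈ prodL l m ↔ p.1 ∈ l ∧ p.2 ∈ m := by
  unfold prodL
  simp only [List.mem_flatMap, List.mem_map]
  constructor
  · rintro ⟨x, hx, y, hy, rfl⟩
    exact ⟨hx, hy⟩
  · rintro ⟨h1, h2⟩
    exact ⟨p.1, h1, p.2, h2, rfl⟩

theorem PT_prodL {l : α → List γ} {m : α → List δ} (hl : PT A l) (hm : PT A m) :
    PT A (fun a => prodL (l a) (m a)) := by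
  unfold prodL
  refine PT.flatMap (f := fun a x => (m a).map (fun y => (x, y))) hl ?_
  exact PT.map (f := fun (p : α × γ) y => (p.2, y)) (hm.comp PT.fst')
    ((PT.snd'.comp PT.fst').pair PT.snd')

/-! ### Windows -/

/-- All windows of the periodic word of `c` of length at most `2 * cycW c`, the shortest first. -/
def wins (c : List (List ℕ)) : List (List ℕ) :=
  (List.range (2 * cycW c + 1)).flatMap (fun l =>
    (List.range (cycW c)).map (fun p => ((pw c 3).drop p).take l))

/-- The shortest window which contains all strings of the walk. -/
def bestWin (c : List (List ℕ)) : List ℕ :=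
  ((wins c).find? (fun u => c.all (fun s => infB s u))).getD (mergeL c)

theorem PT_wins {c : α → List (List ℕ)} (hc : PT A c) : PT A (fun a => wins (c a)) := by
  unfold wins
  have hW := PT_cycW hc
  have hWb : PBd (fun a => cycW (c a)) := (PBd.length (PT_mergeL hc)).mono fun a =>
    cycW_le_length _
  refine PT.flatMap (f := fun a l => (List.range (cycW (c a))).map
    (fun p => ((pw (c a) 3).drop p).take l)) (PT.range (PT.add (PT.mul (PT.const 2) hW)
      (PT.const 1)) (((PBd.const 2).mul hWb).add (PBd.const 1))) ?_
  refine PT.map (f := fun (q : α × ℕ) p => ((pw (c q.1) 3).drop p).take q.2)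
    ((PT.range hW hWb).comp PT.fst') ?_
  exact PT.take (PT.drop (PT_pw (hc.comp (PT.fst'.comp PT.fst')) (PT.const 3) (PBd.const 3))
    PT.snd') (PT.snd'.comp PT.fst')

theorem PT_bestWin {c : α → List (List ℕ)} (hc : PT A c) : PT A (fun a => bestWin (c a)) := by
  unfold bestWin
  refine PT.optGetD (PT.find? (f := fun a u => (c a).all (fun s => infB s u)) (PT_wins hc) ?_)
    (PT_mergeL hc)
  exact PT.all (f := fun (p : α × List ℕ) s => infB s p.2) (hc.comp PT.fst')
    (PT_infB PT.snd' (PT.snd'.comp PT.fst'))

end Vale.Agent.P333.H950
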