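import Vale.Agent.P333.H950.Comb
import Vale.Agent.P333.G.Acc

set_option linter.all false

/-!
P333, ratio `2`: the shortest window of the periodic word of a closed walk.
-/

namespace Vale.Agent.P333.H950

open Vale.Agent.P333 Vale.Agent.P333.U Vale.Agent.P333.E Vale.Agent.P333.G Vale.Agent.P333.X
  Vale.Agent.Lib.PolyTime

theorem mem_wins {c : List (List ℕ)} {U : List ℕ} {a : ℕ} (hw : 0 < cycW c)
    (hU : OccAt (cycWord c) U a) (hl : U.length ≤ 2 * cycW c) :
    U ∈ (List.range (cycW c)).map (fun p => ((pw c 3).drop p).take U.length) := by
  have hp : a % cycW c < cycW c := Nat.mod_lt _ hw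
  refine List.mem_map.2 ⟨a % cycW c, List.mem_range.2 hp, ?_⟩
  have hlen := AccB.length_pw c 3
  apply List.ext_getElem
  · simp only [List.length_take, List.length_drop]
    omega
  · intro i h1 h2
    rw [List.getElem_take, List.getElem_drop, hU i h2, ← List.getD_eq_getElem _ 0,
      AccB.pw_get c hw 3 _ (by omega)]
    conv_rhs => rw [← Nat.mod_add_div a (cycW c)]
    rw [Nat.add_right_comm, Nat.mul_comm, cycWord_add_mul]

/-- The best window is at most as long as every window of length at most two laps which contains
all strings of the walk. -/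
theorem bestWin_spec {c : List (List ℕ)} {U : List ℕ} {a : ℕ} (hw : 0 < cycW c)
    (hU : OccAt (cycWord c) U a) (hall : ∀ s ∈ c, s <:+: U) (hl : U.length ≤ 2 * cycW c) :
    (∀ s ∈ c, s <:+: bestWin c) ∧ (bestWin c).length ≤ U.length := by
  have hmem := mem_wins hw hU hl
  have hsplit : List.range (2 * cycW c + 1) = List.range (U.length + 1) ++
      (List.range (2 * cycW c - U.length)).map (fun i => U.length + 1 + i) := by
    rw [← List.range_add]
    congr 1
    omega
  have hPU : c.all (fun s => infB s U) = true :=
    List.all_eq_true.2 fun s hs => (infB_iff _ _).2 (hall s hs)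
  have hfind : ∃ u, ((List.range (U.length + 1)).flatMap (fun l =>
      (List.range (cycW c)).map (fun p => ((pw c 3).drop p).take l))).find?
        (fun u => c.all (fun s => infB s u)) = some u := by
    rw [← Option.isSome_iff_exists, List.find?_isSome]
    exact ⟨U, List.mem_flatMap.2 ⟨U.length, List.mem_range.2 (Nat.lt_succ_self _), hmem⟩, hPU⟩
  obtain ⟨u, hu⟩ := hfind
  have hbest : bestWin c = u := by
    unfold bestWin wins
    rw [hsplit, List.flatMap_append, List.find?_append, hu]
    rfl
  rw [hbest]
  constructor
  · intro s hs
    have := List.find?_some hu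
    exact (infB_iff _ _).1 (List.all_eq_true.1 this s hs)
  · obtain ⟨l, hl', hu'⟩ := List.mem_flatMap.1 (List.mem_of_find?_eq_some hu)
    obtain ⟨p, -, rfl⟩ := List.mem_map.1 hu'
    have := List.mem_range.1 hl'
    rw [List.length_take]
    omega

/-- The best window contains all strings of the walk. -/
theorem bestWin_cont (c : List (List ℕ)) : ∀ s ∈ c, s <:+: bestWin c := by
  intro s hs
  unfold bestWin
  cases hf : (wins c).find? (fun u => c.all (fun s => infB s u)) with
  | none => exact infix_mergeL hs
  | some u =>
    have := List.find?_some hf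
    exact (infB_iff _ _).1 (List.all_eq_true.1 this s hs)

end Vale.Agent.P333.H950
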